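import Vale.Agent.Lib.P066.Sound

namespace Vale.Agent.Results.P066.RectClosure

open Vale.Agent.Lib.P066 Polynomial

/-- Every pair (graph, weight) in the class generated from complete graphs by ordered disjoint
unions and the two rectangle rules satisfies the (twin-refined) Shareshian-Wachs positivity:
`χ_{G(h)} = ∑_λ w c_λ e_λ` with `c_λ ∈ ℕ[q]`. -/
theorem result : ∀ (n : ℕ) (h : ℕ → ℕ) (w : ℕ[X]), Good n h w → EPosDiv n h w :=
  fun _ _ _ H => (sound H).ePosDiv

end Vale.Agent.Results.P066.RectClosure
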